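import Vale.Agent.Lib.P064.ThresholdLemmas

namespace Vale.Agent.Results.P064.BoundedDegree

open Vale.Agent.Lib.P064

open scoped Classical

/-- **Expectation thresholds of graphs of maximum degree `Δ`.**

Let `H` be a graph on the vertex set `Fin n` all of whose degrees are at most `Δ`.

(1) If every subgraph of `H` has at least one expected copy in `G(n,q)`, then every subgraph
`F` of `H` has at most `E N(G(n, min 1 (72 Δ q)), F)` copies in `H`.

(2) Consequently the modified expectation threshold is at most `144 Δ` times the expectation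
threshold. -/
theorem result :
    ∀ (n : ℕ) (H : SimpleGraph (Fin n)) (Δ : ℕ),
      (∀ v : Fin n, (H.neighborSet v).ncard ≤ Δ) →
      (∀ q : ℝ, 0 ≤ q → q ≤ 1 →
        (∀ F : SimpleGraph (Fin n), F ≤ H → 1 ≤ expCopies F q) →
        ∀ F : SimpleGraph (Fin n), F ≤ H →
          (copies H F : ℝ) ≤ expCopies F (min 1 (72 * Δ * q))) ∧
      pEt H ≤ 144 * Δ * pE H := by
  intro n H Δ hdeg
  have hΔ : ∀ x, (H.neighborFinset x).card ≤ Δ := by
    intro x
    have h := hdeg x
    rw [Set.ncard_eq_toFinset_card'] at h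
    exact h
  have hcomp : ∀ q : ℝ, 0 ≤ q → q ≤ 1 →
      (∀ F : SimpleGraph (Fin n), F ≤ H → (1 : ℝ) ≤ (copies ⊤ F : ℝ) * q ^ F.edgeSet.ncard) →
      ∀ F : SimpleGraph (Fin n), F ≤ H →
        (copies H F : ℝ) ≤ (copies ⊤ F : ℝ) * (72 * Δ * q) ^ F.edgeSet.ncard := by
    intro q hq0 _ hyp F hF
    rw [ncard_edgeSet]
    exact comparison_deg H Δ hΔ q hq0 hyp F hF
  refine ⟨?_, ?_⟩
  · intro q hq0 hq1 hyp F hF
    rw [expCopies]
    by_cases h1 : (1 : ℝ) ≤ 72 * Δ * q
    · rw [min_eq_left h1, one_pow, mul_one]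
      exact_mod_cast copies_le_top H F
    · rw [not_le] at h1
      rw [min_eq_right h1.le]
      exact hcomp q hq0 hq1 hyp F hF
  · have h := pEt_le_of_comparison H (72 * Δ) (by positivity) hcomp
    have e : (2 : ℝ) * (72 * Δ) * pE H = 144 * Δ * pE H := by ring
    rw [e] at h
    exact h

end Vale.Agent.Results.P064.BoundedDegree
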