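import Vale.Agent.Lib.P064.SparseMain

namespace Vale.Agent.Results.P064.SparseRegime

open Vale.Agent.Lib.P064

open scoped Classical

/-- **Expectation thresholds: the comparison with a loss of order `max(1, n q)`.**

Let `H` be any graph on the vertex set `Fin n`.

(A) Comparison.  Let `q ∈ [0,1]` be such that every subgraph of `H` has at least one expected
copy in `G(n,q)`.  Then every graph `F` on `Fin n` has at most
`E N(G(n, min 1 (L q)), F)` copies in `H`, where `L = 114130944 * max(1, n q)`.

(B) Thresholds.  The modified expectation threshold `pEt H` is at most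
`456523776 * max(1, n * pE H) * pE H`, where `pE H` is the expectation threshold.  In
particular `pEt H = O(pE H)` whenever `pE H = O(1/n)`. -/
theorem result :
    ∀ (n : ℕ) (H : SimpleGraph (Fin n)),
      (∀ q : ℝ, 0 ≤ q → q ≤ 1 →
        (∀ F : SimpleGraph (Fin n), F ≤ H → 1 ≤ expCopies F q) →
        ∀ F : SimpleGraph (Fin n),
          (copies H F : ℝ) ≤ expCopies F (min 1 (114130944 * max 1 ((n : ℝ) * q) * q))) ∧
      pEt H ≤ 456523776 * max 1 ((n : ℝ) * pE H) * pE H := by
  intro n H
  refine ⟨?_, pEt_le_sparse H⟩
  intro q hq0 _ hyp F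
  have h := comparison_sparse H q hq0 hyp F
  rw [expCopies, ncard_edgeSet]
  by_cases h1 : (1 : ℝ) ≤ 114130944 * max 1 ((n : ℝ) * q) * q
  · rw [min_eq_left h1, one_pow, mul_one]
    exact_mod_cast copies_le_top H F
  · rw [not_le] at h1
    rw [min_eq_right h1.le]
    exact h

end Vale.Agent.Results.P064.SparseRegime
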