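import Vale.Agent.Lib.P064.Stars

namespace Vale.Agent.Results.P064.StarComparison

open Vale.Agent.Lib.P064

/-- A new case of the comparison between subgraph counts and expected counts in `G(n,p)`,
with a universal constant: stars of arbitrary size.

Let `H` be a graph on the vertex set `Fin n` and `q ∈ [0,1]`.  Suppose every subgraph `F ≤ H`
has expected count at least `1` in `G(n,q)`, i.e. `N(K_n,F) q^{e(F)} ≥ 1`.  Then for every star
`K_{1,t}` (`t ≥ 1`, centre `c`, leaf set `A`), the number of copies of the star in `H` is at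
most its expected count in `G(n, min(1, 72 q))`, i.e. at most `N(K_n,K_{1,t}) min(1,72q)^t`. -/
theorem result :
    ∀ (n : ℕ) (H : SimpleGraph (Fin n)) (q : ℝ), 0 ≤ q → q ≤ 1 →
      (∀ F : SimpleGraph (Fin n), F ≤ H →
        (1 : ℝ) ≤ (copies ⊤ F : ℝ) * q ^ F.edgeSet.ncard) →
      ∀ (t : ℕ) (c : Fin n) (A : Finset (Fin n)), c ∉ A → A.card = t → 1 ≤ t →
        (copies H (starGraph c A) : ℝ)
          ≤ (copies ⊤ (starGraph c A) : ℝ) * (min 1 (72 * q)) ^ t := by
  intro n H q hq0 _ hyp t c A hc hA ht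
  by_cases h : 1 ≤ 72 * q
  · rw [min_eq_left h, one_pow, mul_one]
    exact_mod_cast copies_le_top H (starGraph c A)
  · rw [not_le] at h
    rw [min_eq_right h.le]
    obtain ⟨s, rfl⟩ : ∃ s, t = s + 1 := ⟨t - 1, by omega⟩
    have h1 : (copies H (starGraph c A) : ℝ) ≤ ((starPairs H (s + 1)).card : ℝ) := by
      have := copies_le_starPairs H c A hc
      rw [hA] at this
      exact_mod_cast this
    have h2 := starPairs_bound H q hq0 hyp s
    have h3 : ((starPairs (⊤ : SimpleGraph (Fin n)) (s + 1)).card : ℝ)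
        ≤ 2 * (copies ⊤ (starGraph c A) : ℝ) := by
      have := starPairs_top_le c A hc (by omega)
      rw [hA] at this
      exact_mod_cast this
    have h4 : (0 : ℝ) ≤ (36 * q) ^ (s + 1) := by positivity
    have h5 : (2 : ℝ) * (36 * q) ^ (s + 1) ≤ (72 * q) ^ (s + 1) := by
      have e : (72 * q) ^ (s + 1) = 2 ^ (s + 1) * (36 * q) ^ (s + 1) := by
        rw [← mul_pow]
        congr 1
        ring
      rw [e]
      have h2s : (2 : ℝ) ≤ 2 ^ (s + 1) := by
        calc (2 : ℝ) = 2 ^ 1 := by norm_num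
          _ ≤ 2 ^ (s + 1) := pow_le_pow_right₀ (by norm_num) (by omega)
      exact mul_le_mul_of_nonneg_right h2s h4
    have hcop : (0 : ℝ) ≤ (copies ⊤ (starGraph c A) : ℝ) := Nat.cast_nonneg _
    calc (copies H (starGraph c A) : ℝ)
        ≤ ((starPairs H (s + 1)).card : ℝ) := h1
      _ ≤ ((starPairs (⊤ : SimpleGraph (Fin n)) (s + 1)).card : ℝ) * (36 * q) ^ (s + 1) := h2
      _ ≤ (2 * (copies ⊤ (starGraph c A) : ℝ)) * (36 * q) ^ (s + 1) :=
          mul_le_mul_of_nonneg_right h3 h4
      _ = (copies ⊤ (starGraph c A) : ℝ) * (2 * (36 * q) ^ (s + 1)) := by ring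
      _ ≤ (copies ⊤ (starGraph c A) : ℝ) * (72 * q) ^ (s + 1) :=
          mul_le_mul_of_nonneg_left h5 hcop

end Vale.Agent.Results.P064.StarComparison
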