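import Vale.Agent.Lib.P064.StarForest

namespace Vale.Agent.Results.P064.ThreeClasses

open Vale.Agent.Lib.P064

open scoped Classical

/-- **Expectation thresholds: graphs of bounded degree, star forests and forests.**

Let `H` be a graph on the vertex set `Fin n`.

(A) Comparison.  Let `q ∈ [0,1]` be such that every subgraph of `H` has at least one expected
copy in `G(n,q)`.  Then every subgraph `F` of `H` has at most `E N(G(n, min 1 (L q)), F)` copies
in `H`, where
* `L = 72 Δ` if all degrees of `H` are at most `Δ`;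
* `L = 648` if `F` is a star forest (every edge of `F` has an endpoint of degree one in `F`);
* `L = 72 max(1, log n)` if `F` is a forest;
* `L = 72` if `F` is a forest and `H` has a vertex of degree at least `max(1, log n)`.

(B) Thresholds.  The modified expectation threshold `pEt H` is at most
* `144 Δ` times the expectation threshold `pE H` if all degrees of `H` are at most `Δ`;
* `1296 pE H` if `H` is a star forest;
* `144 max(1, log n) pE H` if `H` is a forest;
* `144 pE H` if `H` is a forest with a vertex of degree at least `max(1, log n)`. -/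
theorem result :
    ∀ (n : ℕ) (H : SimpleGraph (Fin n)),
      (∀ q : ℝ, 0 ≤ q → q ≤ 1 →
        (∀ F : SimpleGraph (Fin n), F ≤ H → 1 ≤ expCopies F q) →
        ∀ F : SimpleGraph (Fin n), F ≤ H →
          (∀ Δ : ℕ, (∀ v : Fin n, (H.neighborSet v).ncard ≤ Δ) →
            (copies H F : ℝ) ≤ expCopies F (min 1 (72 * Δ * q))) ∧
          ((∀ a b : Fin n, F.Adj a b →
              (∀ c, F.Adj a c → c = b) ∨ (∀ c, F.Adj b c → c = a)) →
            (copies H F : ℝ) ≤ expCopies F (min 1 (648 * q))) ∧
          (F.IsAcyclic →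
            (copies H F : ℝ) ≤ expCopies F (min 1 (72 * max 1 (Real.log n) * q))) ∧
          (F.IsAcyclic →
            (∃ v : Fin n, max 1 (Real.log n) ≤ ((H.neighborSet v).ncard : ℝ)) →
            (copies H F : ℝ) ≤ expCopies F (min 1 (72 * q)))) ∧
      (∀ Δ : ℕ, (∀ v : Fin n, (H.neighborSet v).ncard ≤ Δ) → pEt H ≤ 144 * Δ * pE H) ∧
      ((∀ a b : Fin n, H.Adj a b → (∀ c, H.Adj a c → c = b) ∨ (∀ c, H.Adj b c → c = a)) →
        pEt H ≤ 1296 * pE H) ∧
      (H.IsAcyclic → pEt H ≤ 144 * max 1 (Real.log n) * pE H) ∧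
      (H.IsAcyclic →
        (∃ v : Fin n, max 1 (Real.log n) ≤ ((H.neighborSet v).ncard : ℝ)) →
        pEt H ≤ 144 * pE H) := by
  intro n H
  -- degree hypotheses in finset form
  have hdegF : ∀ Δ : ℕ, (∀ v : Fin n, (H.neighborSet v).ncard ≤ Δ) →
      ∀ x, (H.neighborFinset x).card ≤ Δ := by
    intro Δ hdeg x
    have h := hdeg x
    rw [Set.ncard_eq_toFinset_card'] at h
    exact h
  have hmaxdeg : (∃ v : Fin n, max 1 (Real.log n) ≤ ((H.neighborSet v).ncard : ℝ)) →
      max 1 (Real.log n) ≤ (H.maxDegree : ℝ) := by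
    rintro ⟨v, hv⟩
    refine le_trans hv ?_
    have h1 : (H.neighborSet v).ncard = H.degree v := by
      rw [Set.ncard_eq_toFinset_card']
      rfl
    rw [h1]
    exact_mod_cast H.degree_le_maxDegree v
  -- passing from the raw comparison to the form with `min 1`
  have hmin : ∀ (F : SimpleGraph (Fin n)) (y : ℝ),
      (copies H F : ℝ) ≤ (copies ⊤ F : ℝ) * y ^ F.edgeFinset.card →
      (copies H F : ℝ) ≤ expCopies F (min 1 y) := by
    intro F y h
    rw [expCopies, ncard_edgeSet]
    by_cases h1 : (1 : ℝ) ≤ y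
    · rw [min_eq_left h1, one_pow, mul_one]
      exact_mod_cast copies_le_top H F
    · rw [not_le] at h1
      rw [min_eq_right h1.le]
      exact h
  -- the raw comparisons, in the form needed for the thresholds
  have hcompDeg : ∀ Δ : ℕ, (∀ v : Fin n, (H.neighborSet v).ncard ≤ Δ) →
      ∀ q : ℝ, 0 ≤ q → q ≤ 1 →
      (∀ F : SimpleGraph (Fin n), F ≤ H → (1 : ℝ) ≤ (copies ⊤ F : ℝ) * q ^ F.edgeSet.ncard) →
      ∀ F : SimpleGraph (Fin n), F ≤ H →
        (copies H F : ℝ) ≤ (copies ⊤ F : ℝ) * (72 * Δ * q) ^ F.edgeSet.ncard := by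
    intro Δ hdeg q hq0 _ hyp F hF
    rw [ncard_edgeSet]
    exact comparison_deg H Δ (hdegF Δ hdeg) q hq0 hyp F hF
  refine ⟨?_, ?_, ?_, ?_, ?_⟩
  · intro q hq0 hq1 hyp F hF
    refine ⟨?_, ?_, ?_, ?_⟩
    · intro Δ hdeg
      exact hmin F _ (comparison_deg H Δ (hdegF Δ hdeg) q hq0 hyp F hF)
    · intro hstar
      exact hmin F _ (comparison_starForest H q hq0 hyp F hstar)
    · intro hacyc
      exact hmin F _ (comparison_forest H q hq0 hyp F hF hacyc)
    · intro hacyc hv
      exact hmin F _ (comparison_forest_dense H q hq0 hyp F hacyc (hmaxdeg hv))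
  · intro Δ hdeg
    have h := pEt_le_of_comparison H (72 * Δ) (by positivity) (hcompDeg Δ hdeg)
    have e : (2 : ℝ) * (72 * Δ) * pE H = 144 * Δ * pE H := by ring
    rw [e] at h
    exact h
  · intro hstar
    have h := pEt_le_of_comparison H 648 (by norm_num) (by
      intro q hq0 _ hyp F hF
      rw [ncard_edgeSet]
      refine comparison_starForest H q hq0 hyp F ?_
      intro a b hab
      rcases hstar a b (hF hab) with h1 | h1
      · exact Or.inl (fun c hc => h1 c (hF hc))
      · exact Or.inr (fun c hc => h1 c (hF hc)))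
    have e : (2 : ℝ) * 648 * pE H = 1296 * pE H := by ring
    rw [e] at h
    exact h
  · intro hacyc
    have h := pEt_le_of_comparison H (72 * max 1 (Real.log n)) (by positivity) (by
      intro q hq0 _ hyp F hF
      rw [ncard_edgeSet]
      exact comparison_forest H q hq0 hyp F hF (hacyc.anti hF))
    have e : (2 : ℝ) * (72 * max 1 (Real.log n)) * pE H = 144 * max 1 (Real.log n) * pE H := by
      ring
    rw [e] at h
    exact h
  · intro hacyc hv
    have h := pEt_le_of_comparison H 72 (by norm_num) (by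
      intro q hq0 _ hyp F hF
      rw [ncard_edgeSet]
      exact comparison_forest_dense H q hq0 hyp F (hacyc.anti hF) (hmaxdeg hv))
    have e : (2 : ℝ) * 72 * pE H = 144 * pE H := by ring
    rw [e] at h
    exact h

end Vale.Agent.Results.P064.ThreeClasses
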